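import Mathlib
import Vale.Agent.Lib.P181.Dim

/-!
P181 (Foulkes): the dimension inequality `dim Sym^a(Sym^b V) ≤ dim Sym^b(Sym^a V)` for `a ≤ b`,
stated as a count of multisets of multisets (monomial bases) and as a binomial inequality.
-/

namespace Vale.Agent.Results.P181.A_DimensionInequality

open Vale.Agent.Lib.P181

theorem result :
    (∀ (α : Type) [Fintype α] [DecidableEq α] (a b : ℕ), a ≤ b →
        Fintype.card (Sym (Sym α b) a) ≤ Fintype.card (Sym (Sym α a) b)) ∧
    (∀ n a b : ℕ, 1 ≤ n → a ≤ b →
        ((n + b - 1).choose b + a - 1).choose a ≤ ((n + a - 1).choose a + b - 1).choose b) := by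
  constructor
  · intro α _ _ a b hab
    rw [Sym.card_sym_eq_multichoose, Sym.card_sym_eq_multichoose, Sym.card_sym_eq_multichoose,
      Sym.card_sym_eq_multichoose]
    exact mc_mc_le (Fintype.card α) a b hab
  · intro n a b _ hab
    have h := mc_mc_le n a b hab
    rw [Nat.multichoose_eq, Nat.multichoose_eq, Nat.multichoose_eq, Nat.multichoose_eq] at h
    exact h

end Vale.Agent.Results.P181.A_DimensionInequality
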